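import Vale.Agent.P317M.LorForm

/-! # P317M: the operators `D` and `DL` -/

namespace Vale.Agent.P317M

open Finset

variable {E : Type*} [Fintype E] [DecidableEq E]

theorem D_add (x y : E → ℝ) (F : Finset E → ℝ) (A : Finset E) :
    D (x + y) F A = D x F A + D y F A := by
  unfold D
  rw [← sum_add_distrib]
  exact sum_congr rfl fun u _ => by simp only [Pi.add_apply]; ring

theorem D_smul (c : ℝ) (x : E → ℝ) (F : Finset E → ℝ) (A : Finset E) :
    D (c • x) F A = c * D x F A := by
  unfold D
  rw [mul_sum]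
  exact sum_congr rfl fun u _ => by simp only [Pi.smul_apply, smul_eq_mul]; ring

theorem D_addF (x : E → ℝ) (F G : Finset E → ℝ) (A : Finset E) :
    D x (fun B => F B + G B) A = D x F A + D x G A := by
  unfold D
  rw [← sum_add_distrib]
  exact sum_congr rfl fun u _ => by ring

theorem D_smulF (c : ℝ) (x : E → ℝ) (F : Finset E → ℝ) (A : Finset E) :
    D x (fun B => c * F B) A = c * D x F A := by
  unfold D
  rw [mul_sum]
  exact sum_congr rfl fun u _ => by ring

theorem D_comm (x y : E → ℝ) (F : Finset E → ℝ) (A : Finset E) :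
    D x (D y F) A = D y (D x F) A := by
  unfold D
  simp only [mul_sum, sum_sigma']
  refine sum_bij' (fun p _ => ⟨p.2, p.1⟩) (fun p _ => ⟨p.2, p.1⟩) ?_ ?_ ?_ ?_ ?_
  · rintro ⟨u, v⟩ h
    simp only [mem_sigma, mem_compl, mem_insert, not_or] at h ⊢
    exact ⟨h.2.2, fun h' => h.2.1 h'.symm, h.1⟩
  · rintro ⟨u, v⟩ h
    simp only [mem_sigma, mem_compl, mem_insert, not_or] at h ⊢
    exact ⟨h.2.2, fun h' => h.2.1 h'.symm, h.1⟩
  · rintro ⟨u, v⟩ h; rfl
  · rintro ⟨u, v⟩ h; rfl
  · rintro ⟨u, v⟩ h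
    simp only
    rw [insert_comm]
    ring

theorem D_single (e : E) (F : Finset E → ℝ) (A : Finset E) :
    D (Pi.single e 1) F A = if e ∈ A then 0 else F (insert e A) := by
  unfold D
  split_ifs with h
  · refine sum_eq_zero fun u hu => ?_
    have : u ≠ e := fun h' => by subst h'; simp at hu; exact hu h
    rw [Pi.single_eq_of_ne this, zero_mul]
  · rw [sum_eq_single e]
    · simp
    · intro u _ hu; rw [Pi.single_eq_of_ne hu, zero_mul]
    · intro h'; simp at h'; exact absurd h' h

theorem D_nonneg {x : E → ℝ} {F : Finset E → ℝ} (hx : ∀ e, 0 ≤ x e) {A : Finset E}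
    (hF : ∀ e, e ∉ A → 0 ≤ F (insert e A)) : 0 ≤ D x F A := by
  unfold D
  exact sum_nonneg fun u hu => mul_nonneg (hx u) (hF u (by simpa using hu))

theorem DL_nil (F : Finset E → ℝ) : DL [] F = F := rfl

theorem DL_cons (v : E → ℝ) (vs : List (E → ℝ)) (F : Finset E → ℝ) :
    DL (v :: vs) F = D v (DL vs F) := rfl

theorem D_congr {x : E → ℝ} {F G : Finset E → ℝ} {A : Finset E}
    (h : ∀ e, e ∉ A → F (insert e A) = G (insert e A)) : D x F A = D x G A := by
  unfold D
  exact sum_congr rfl fun u hu => by rw [h u (by simpa using hu)]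

theorem DL_D (vs : List (E → ℝ)) (x : E → ℝ) (F : Finset E → ℝ) (A : Finset E) :
    DL vs (D x F) A = D x (DL vs F) A := by
  induction vs generalizing A with
  | nil => rfl
  | cons v vs ih =>
    rw [DL_cons, DL_cons, D_comm x v]
    exact D_congr fun e _ => ih _

end Vale.Agent.P317M
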