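import Mathlib

/-! # P317M: definitions for the mathematical part

The ground set consists of pairs `(i, false), (i, true)` for `i : ι`, `n = |ι|`; a state is a set of
`n` elements. See `notes/P317_fpras.md`. -/

namespace Vale.Agent.P317M

open Finset

section D

variable {E : Type*} [Fintype E] [DecidableEq E]

/-- directional derivative: the sum over the elements `u ∉ A` of `x u * F (A + u)` -/
def D (x : E → ℝ) (F : Finset E → ℝ) (A : Finset E) : ℝ :=
  ∑ u ∈ Aᶜ, x u * F (insert u A)

/-- iterated directional derivatives -/
def DL (vs : List (E → ℝ)) (F : Finset E → ℝ) : Finset E → ℝ :=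
  vs.foldr D F

/-- the reversed Cauchy-Schwarz inequality of a form with at most one positive eigenvalue -/
def Lor (Q : (E → ℝ) → (E → ℝ) → ℝ) : Prop :=
  ∀ x y, 0 < Q x x → Q x x * Q y y ≤ Q x y ^ 2

end D

variable {ι : Type*} [DecidableEq ι]

/-- sum over all ways to add to `S` one element of each pair of the list `l` -/
def Tsum : List ι → (Finset (ι × Bool) → ℝ) → Finset (ι × Bool) → ℝ
  | [], F, S => F S
  | i :: l, F, S => Tsum l F (insert (i, false) S) + Tsum l F (insert (i, true) S)

/-- `S` contains no element of the pairs in `l` -/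
def Off (l : List ι) (S : Finset (ι × Bool)) : Prop := ∀ p ∈ S, p.1 ∉ l

/-- variation of `h` along the pair `j` -/
def EJ (w h : Finset (ι × Bool) → ℝ) (l : List ι) (j : ι) (S : Finset (ι × Bool)) : ℝ :=
  Tsum l (fun A => w (insert (j, false) (insert (j, true) A)) *
    (h (insert (j, false) A) - h (insert (j, true) A)) ^ 2) S

variable [Fintype ι]

/-- a positive weight function whose second derivatives along transversal sums are nonpositive on
the orthogonal complement of a nonnegative vector with positive square -/
structure LorW (w : Finset (ι × Bool) → ℝ) : Prop where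
  pos : ∀ A, 0 < w A
  orth : ∀ (l : List ι) (S : Finset (ι × Bool)) (u v : ι × Bool → ℝ), l.Nodup → Off l S →
    (∀ g, 0 ≤ u g) → 0 < Tsum l (D u (D u w)) S → Tsum l (D u (D v w)) S = 0 →
      Tsum l (D v (D v w)) S ≤ 0

end Vale.Agent.P317M
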