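import Vale.Agent.P317M.TsumLib

/-! # P317M: the generalized inequality (GF) -/

namespace Vale.Agent.P317M

open Finset

theorem sqrt_add_le {p E p' E' : ℝ} (hp : 0 ≤ p) (hE : 0 ≤ E) (hp' : 0 ≤ p') (hE' : 0 ≤ E') :
    √(p * E) + √(p' * E') ≤ √((p + p') * (E + E')) := by
  apply Real.le_sqrt_of_sq_le
  have h1 : √(p * E) ^ 2 = p * E := Real.sq_sqrt (mul_nonneg hp hE)
  have h2 : √(p' * E') ^ 2 = p' * E' := Real.sq_sqrt (mul_nonneg hp' hE')
  have h3 : 2 * (√(p * E) * √(p' * E')) ≤ p * E' + p' * E := by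
    rw [Real.sqrt_mul hp, Real.sqrt_mul hp']
    have e : √p * √E * (√p' * √E') = (√p * √E') * (√p' * √E) := by ring
    rw [e]
    have h4 := two_mul_le_add_sq (√p * √E') (√p' * √E)
    rw [mul_pow, mul_pow, Real.sq_sqrt hp, Real.sq_sqrt hE', Real.sq_sqrt hp',
      Real.sq_sqrt hE] at h4
    linarith
  nlinarith

theorem list_sum_add_le {κ : Type*} (l : List κ) (f g k : κ → ℝ)
    (h : ∀ j ∈ l, f j + g j ≤ k j) : (l.map f).sum + (l.map g).sum ≤ (l.map k).sum := by
  induction l with
  | nil => simp
  | cons i l ih =>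
    simp only [List.map_cons, List.sum_cons]
    have h1 := h i List.mem_cons_self
    have h2 := ih fun j hj => h j (List.mem_cons_of_mem _ hj)
    linarith

variable {ι : Type*} [Fintype ι] [DecidableEq ι]

theorem EJ_nonneg {w : Finset (ι × Bool) → ℝ} (hw : LorW w) (h : Finset (ι × Bool) → ℝ)
    {l : List ι} (hl : l.Nodup) (j : ι) {S : Finset (ι × Bool)} (hS : Off l S) :
    0 ≤ EJ w h l j S :=
  Tsum_nonneg hl hS fun _ _ => mul_nonneg (hw.pos _).le (sq_nonneg _)

/-- (GF), see `notes/P317_fpras.md`. Induction on `l`, peeling the head pair. -/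
theorem GF {w : Finset (ι × Bool) → ℝ} (hw : LorW w) (l : List ι) (S : Finset (ι × Bool))
    (hl : l.Nodup) (hS : Off l S)
    (Θ : ι × Bool → ℝ) (h0 : Tsum l (D Θ w) S = 0) (h : Finset (ι × Bool) → ℝ) :
    (∀ j ∈ l, Tsum (l.erase j) (D Θ (D Θ w)) S ≤ 0) ∧
    |Tsum l (fun A => h A * D Θ w A) S| ≤ (l.map fun j =>
      √(-(1 / 2) * Tsum (l.erase j) (D Θ (D Θ w)) S * EJ w h (l.erase j) j S)).sum := by
  induction l generalizing S Θ with
  | nil =>
    refine ⟨fun j hj => by simp at hj, ?_⟩
    have h1 : D Θ w S = 0 := h0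
    show |h S * D Θ w S| ≤ 0
    rw [h1]; simp
  | cons i l ih =>
    obtain ⟨hil, hl'⟩ := List.nodup_cons.1 hl
    have haS : (i, false) ∉ S := hS.head _
    have hbS : (i, true) ∉ S := hS.head _
    have hab : ((i, true) : ι × Bool) ≠ (i, false) := by simp
    set Sa := insert ((i, false) : ι × Bool) S with hSa
    set Sb := insert ((i, true) : ι × Bool) S with hSb
    have hbSa : (i, true) ∉ Sa := by rw [hSa, mem_insert, not_or]; exact ⟨hab, hbS⟩
    have haSb : (i, false) ∉ Sb := by rw [hSb, mem_insert, not_or]; exact ⟨hab.symm, haS⟩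
    have hOff : Off l S := hS.cons
    have hOa : Off l Sa := hOff.insert hil
    have hOb : Off l Sb := hOff.insert hil
    have hswap : insert ((i, false) : ι × Bool) Sb = insert (i, true) Sa := by
      rw [hSa, hSb, insert_comm]
    set τ := Tsum l (D Θ w) Sa with hτ
    have hτ' : Tsum l (D Θ w) Sb = -τ := by
      have : Tsum l (D Θ w) Sa + Tsum l (D Θ w) Sb = 0 := h0
      linarith
    set Z := Tsum l w (insert (i, true) Sa) with hZdef
    have hZ : 0 < Z := Tsum_pos hl' (hOa.insert hil) fun A _ => hw.pos A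
    -- the form of the head pair
    set ea : ι × Bool → ℝ := Pi.single (i, false) 1 with hea
    set eb : ι × Bool → ℝ := Pi.single (i, true) 1 with heb
    have hQ : IsForm (fun x y => Tsum l (D x (D y w)) S) := isForm_Tsum l w S
    have hea0 : ∀ g, 0 ≤ (ea + eb) g := by
      intro g
      rw [hea, heb, Pi.add_apply, Pi.single_apply, Pi.single_apply]
      split_ifs <;> norm_num
    have Qaa : Tsum l (D ea (D ea w)) S = 0 := by
      rw [hea, Tsum_D_single hl' hOff hil haS]
      exact Tsum_D_single_mem hl' hOa (mem_insert_self _ _) w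
    have Qbb : Tsum l (D eb (D eb w)) S = 0 := by
      rw [heb, Tsum_D_single hl' hOff hil hbS]
      exact Tsum_D_single_mem hl' hOb (mem_insert_self _ _) w
    have Qab : Tsum l (D ea (D eb w)) S = Z := by
      rw [hea, Tsum_D_single hl' hOff hil haS, heb, Tsum_D_single hl' hOa hil hbSa]
    have Qba : Tsum l (D eb (D ea w)) S = Z := by rw [← Qab]; exact hQ.symm _ _
    have QaΘ : Tsum l (D ea (D Θ w)) S = τ := by rw [hea, Tsum_D_single hl' hOff hil haS]
    have QbΘ : Tsum l (D eb (D Θ w)) S = -τ := by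
      rw [heb, Tsum_D_single hl' hOff hil hbS]; exact hτ'
    have QΘa : Tsum l (D Θ (D ea w)) S = τ := by rw [← QaΘ]; exact hQ.symm _ _
    have QΘb : Tsum l (D Θ (D eb w)) S = -τ := by rw [← QbΘ]; exact hQ.symm _ _
    set κ := τ / Z with hκ
    have hκZ : κ * Z = τ := div_mul_cancel₀ _ hZ.ne'
    have hκτ : 0 ≤ κ * τ := by rw [← hκZ]; nlinarith [mul_nonneg (sq_nonneg κ) hZ.le]
    set Bi := Tsum l (D Θ (D Θ w)) S with hBi
    have hroot : κ * τ ≤ -(1 / 2) * Bi := by
      have h1 := hw.orth l S (ea + eb) (Θ + (κ • ea + (-κ) • eb)) hl' hOff hea0 (by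
        show 0 < Tsum l (D (ea + eb) (D (ea + eb) w)) S
        have := hQ.add_left ea eb (ea + eb)
        have h2 := hQ.add_right ea ea eb
        have h3 := hQ.add_right eb ea eb
        rw [this, h2, h3, Qaa, Qab, Qba, Qbb]
        linarith) (by
        show Tsum l (D (ea + eb) (D (Θ + (κ • ea + (-κ) • eb)) w)) S = 0
        have h2 := hQ.add_left ea eb (Θ + (κ • ea + (-κ) • eb))
        have h3 := hQ.add_right ea Θ (κ • ea + (-κ) • eb)
        have h4 := hQ.add_right eb Θ (κ • ea + (-κ) • eb)
        have h5 := hQ.add_right ea (κ • ea) ((-κ) • eb)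
        have h6 := hQ.add_right eb (κ • ea) ((-κ) • eb)
        have h7 := hQ.smul_right κ ea ea
        have h8 := hQ.smul_right (-κ) ea eb
        have h9 := hQ.smul_right κ eb ea
        have h10 := hQ.smul_right (-κ) eb eb
        rw [h2, h3, h4, h5, h6, h7, h8, h9, h10, Qaa, Qab, Qba, Qbb, QaΘ, QbΘ]
        ring)
      have h2 := hQ.add_left Θ (κ • ea + (-κ) • eb) (Θ + (κ • ea + (-κ) • eb))
      have h3 := hQ.add_right Θ Θ (κ • ea + (-κ) • eb)
      have h4 := hQ.add_right (κ • ea + (-κ) • eb) Θ (κ • ea + (-κ) • eb)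
      have h5 := hQ.comb κ (-κ) ea eb
      have h6 := hQ.symm (κ • ea + (-κ) • eb) Θ
      have h7 := hQ.add_right Θ (κ • ea) ((-κ) • eb)
      have h8 := hQ.smul_right κ Θ ea
      have h9 := hQ.smul_right (-κ) Θ eb
      rw [h2, h3, h4, h5, h6, h7, h8, h9, Qaa, Qab, Qbb, QΘa, QΘb] at h1
      have h10 : κ ^ 2 * Z = κ * τ := by rw [← hκZ]; ring
      nlinarith
    -- the vectors in the two links
    set Θa := Θ + (-κ) • eb with hΘa
    set Θb := Θ + κ • ea with hΘb
    have Da : ∀ A, D Θa w A = D Θ w A + (-κ) * D eb w A := fun A => by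
      rw [hΘa, D_add, D_smul]
    have Db : ∀ A, D Θb w A = D Θ w A + κ * D ea w A := fun A => by
      rw [hΘb, D_add, D_smul]
    have h0a : Tsum l (D Θa w) Sa = 0 := by
      have : Tsum l (D Θa w) Sa = Tsum l (fun A => D Θ w A + (-κ) * D eb w A) Sa :=
        Tsum_congr hl' hOa fun A _ => Da A
      rw [this, Tsum_add, Tsum_smul, heb, Tsum_D_single hl' hOa hil hbSa, ← hZdef]
      show τ + -κ * Z = 0
      linarith
    have h0b : Tsum l (D Θb w) Sb = 0 := by
      have : Tsum l (D Θb w) Sb = Tsum l (fun A => D Θ w A + κ * D ea w A) Sb :=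
        Tsum_congr hl' hOb fun A _ => Db A
      rw [this, Tsum_add, Tsum_smul, hea, Tsum_D_single hl' hOb hil haSb, hswap, ← hZdef]
      show Tsum l (D Θ w) Sb + κ * Z = 0
      rw [hτ']; linarith
    obtain ⟨iha1, iha2⟩ := ih Sa hl' hOa Θa h0a
    obtain ⟨ihb1, ihb2⟩ := ih Sb hl' hOb Θb h0b
    -- additivity of `B_j`
    have hB : ∀ j ∈ l, Tsum ((i :: l).erase j) (D Θ (D Θ w)) S =
        Tsum (l.erase j) (D Θa (D Θa w)) Sa + Tsum (l.erase j) (D Θb (D Θb w)) Sb := by
      intro j hj
      have hij : i ≠ j := fun e => hil (e ▸ hj)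
      have hne : l.erase j = l.erase j := rfl
      have hnd : (l.erase j).Nodup := hl'.erase j
      have hi' : i ∉ l.erase j := fun e => hil (List.mem_of_mem_erase e)
      rw [List.erase_cons_tail (by simpa using hij), Tsum_cons]
      have hFa := isForm_Tsum (l.erase j) w Sa
      have hFb := isForm_Tsum (l.erase j) w Sb
      have e1 := hFa.comb 1 (-κ) Θ eb
      have e2 := hFb.comb 1 κ Θ ea
      simp only [one_smul] at e1 e2
      rw [← hΘa] at e1
      rw [← hΘb] at e2
      have e3 : Tsum (l.erase j) (D eb (D eb w)) Sa = 0 := by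
        rw [heb, Tsum_D_single hnd (hOa.erase j) hi' hbSa]
        exact Tsum_D_single_mem hnd ((hOa.erase j).insert hi') (mem_insert_self _ _) w
      have e4 : Tsum (l.erase j) (D ea (D ea w)) Sb = 0 := by
        rw [hea, Tsum_D_single hnd (hOb.erase j) hi' haSb]
        exact Tsum_D_single_mem hnd ((hOb.erase j).insert hi') (mem_insert_self _ _) w
      have e5 : Tsum (l.erase j) (D Θ (D eb w)) Sa =
          Tsum (l.erase j) (D Θ w) (insert (i, true) Sa) := by
        have := hFa.symm Θ eb
        rw [this, heb, Tsum_D_single hnd (hOa.erase j) hi' hbSa]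
      have e6 : Tsum (l.erase j) (D Θ (D ea w)) Sb =
          Tsum (l.erase j) (D Θ w) (insert (i, true) Sa) := by
        have := hFb.symm Θ ea
        rw [this, hea, Tsum_D_single hnd (hOb.erase j) hi' haSb, hswap]
      rw [e1, e2, e3, e4, e5, e6]
      ring
    have hEadd : ∀ j ∈ l, EJ w h ((i :: l).erase j) j S =
        EJ w h (l.erase j) j Sa + EJ w h (l.erase j) j Sb := by
      intro j hj
      have hij : i ≠ j := fun e => hil (e ▸ hj)
      rw [List.erase_cons_tail (by simpa using hij)]
      rfl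
    have herase : (i :: l).erase i = l := List.erase_cons_head i l
    constructor
    · intro j hj
      rcases List.mem_cons.1 hj with rfl | hj
      · rw [herase, ← hBi]; linarith
      · rw [hB j hj]; linarith [iha1 j hj, ihb1 j hj]
    -- the main inequality
    have hEa : ∀ j ∈ l, 0 ≤ EJ w h (l.erase j) j Sa :=
      fun j _ => EJ_nonneg hw h (hl'.erase j) j (hOa.erase j)
    have hEb : ∀ j ∈ l, 0 ≤ EJ w h (l.erase j) j Sb :=
      fun j _ => EJ_nonneg hw h (hl'.erase j) j (hOb.erase j)
    set G := Tsum l (fun A => w (insert (i, false) (insert (i, true) A)) *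
      (1 * (h (insert (i, false) A) - h (insert (i, true) A)))) S with hG
    have hsplit : Tsum (i :: l) (fun A => h A * D Θ w A) S =
        Tsum l (fun A => h A * D Θa w A) Sa + Tsum l (fun A => h A * D Θb w A) Sb + κ * G := by
      rw [Tsum_cons]
      have e1 : Tsum l (fun A => h A * D Θ w A) Sa = Tsum l (fun A => h A * D Θa w A) Sa +
          κ * Tsum l (fun A => w (insert (i, false) (insert (i, true) A)) *
            h (insert (i, false) A)) S := by
        have e3 : Tsum l (fun A => w (insert (i, false) (insert (i, true) A)) *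
            h (insert (i, false) A)) S = Tsum l (fun A => w (insert (i, true) A) * h A) Sa := by
          rw [hSa, ← Tsum_shift l (i, false)]
          exact Tsum_congr hl' hOff fun A _ => by rw [insert_comm]
        rw [e3, ← Tsum_smul, ← Tsum_add]
        refine Tsum_congr hl' hOa fun A hA => ?_
        rw [Da, heb, D_single, if_neg (hA.notMem hil hbSa)]
        ring
      have e2 : Tsum l (fun A => h A * D Θ w A) Sb = Tsum l (fun A => h A * D Θb w A) Sb +
          (-κ) * Tsum l (fun A => w (insert (i, false) (insert (i, true) A)) *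
            h (insert (i, true) A)) S := by
        have e3 : Tsum l (fun A => w (insert (i, false) (insert (i, true) A)) *
            h (insert (i, true) A)) S = Tsum l (fun A => w (insert (i, false) A) * h A) Sb := by
          rw [hSb, ← Tsum_shift l (i, true)]
        rw [e3, ← Tsum_smul, ← Tsum_add]
        refine Tsum_congr hl' hOb fun A hA => ?_
        rw [Db, hea, D_single, if_neg (hA.notMem hil haSb)]
        ring
      have e4 : G = Tsum l (fun A => w (insert (i, false) (insert (i, true) A)) *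
            h (insert (i, false) A)) S - Tsum l (fun A =>
              w (insert (i, false) (insert (i, true) A)) * h (insert (i, true) A)) S := by
        rw [hG, ← Tsum_sub]
        exact Tsum_congr hl' hOff fun A _ => by ring
      rw [← hSa, ← hSb, e1, e2, e4]
      ring
    have hWnn : ∀ A, Occ l S A → 0 ≤ w (insert (i, false) (insert (i, true) A)) :=
      fun A _ => (hw.pos _).le
    have hGE : G ^ 2 ≤ Z * EJ w h l i S := by
      have h1 := Tsum_cauchy hl' hOff (W := fun A => w (insert (i, false) (insert (i, true) A)))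
        (F := fun _ => 1) (G := fun A => h (insert (i, false) A) - h (insert (i, true) A)) hWnn
      have h2 : Tsum l (fun A => w (insert (i, false) (insert (i, true) A)) * 1 ^ 2) S = Z := by
        rw [hZdef, hSa, insert_comm, ← Tsum_shift l (i, false), ← Tsum_shift l (i, true)]
        exact Tsum_congr hl' hOff fun A _ => by rw [one_pow, mul_one]
      rw [h2] at h1
      exact h1
    have hEi : 0 ≤ EJ w h l i S := EJ_nonneg hw h hl' i hOff
    have hthird : |κ * G| ≤ √(-(1 / 2) * Bi * EJ w h l i S) := by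
      apply Real.le_sqrt_of_sq_le
      rw [sq_abs, mul_pow]
      calc κ ^ 2 * G ^ 2 ≤ κ ^ 2 * (Z * EJ w h l i S) :=
            mul_le_mul_of_nonneg_left hGE (sq_nonneg _)
        _ = (κ * τ) * EJ w h l i S := by rw [← hκZ]; ring
        _ ≤ -(1 / 2) * Bi * EJ w h l i S := mul_le_mul_of_nonneg_right hroot hEi
    rw [hsplit, List.map_cons, List.sum_cons, herase, ← hBi]
    have htail : (l.map fun j => √(-(1 / 2) * Tsum (l.erase j) (D Θa (D Θa w)) Sa *
          EJ w h (l.erase j) j Sa)).sum +
        (l.map fun j => √(-(1 / 2) * Tsum (l.erase j) (D Θb (D Θb w)) Sb *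
          EJ w h (l.erase j) j Sb)).sum ≤
        (l.map fun j => √(-(1 / 2) * Tsum ((i :: l).erase j) (D Θ (D Θ w)) S *
          EJ w h ((i :: l).erase j) j S)).sum := by
      refine list_sum_add_le l _ _ _ fun j hj => ?_
      have h1 := sqrt_add_le (p := -(1 / 2) * Tsum (l.erase j) (D Θa (D Θa w)) Sa)
        (E := EJ w h (l.erase j) j Sa) (p' := -(1 / 2) * Tsum (l.erase j) (D Θb (D Θb w)) Sb)
        (E' := EJ w h (l.erase j) j Sb) (by linarith [iha1 j hj]) (hEa j hj)
        (by linarith [ihb1 j hj]) (hEb j hj)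
      refine h1.trans (le_of_eq ?_)
      rw [hB j hj, hEadd j hj]
      congr 1
      ring
    calc |Tsum l (fun A => h A * D Θa w A) Sa + Tsum l (fun A => h A * D Θb w A) Sb + κ * G|
        ≤ |Tsum l (fun A => h A * D Θa w A) Sa| + |Tsum l (fun A => h A * D Θb w A) Sb| +
          |κ * G| := abs_add_three _ _ _
      _ ≤ _ := by linarith [htail, hthird, iha2, ihb2]

end Vale.Agent.P317M
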