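import Vale.Agent.P317M.Defs

/-! # P317M: elementary facts on forms with the reversed Cauchy-Schwarz inequality -/

namespace Vale.Agent.P317M

variable {E : Type*}

/-- symmetric bilinear forms on `E → ℝ` -/
structure IsForm (Q : (E → ℝ) → (E → ℝ) → ℝ) : Prop where
  symm : ∀ x y, Q x y = Q y x
  add_left : ∀ x y z, Q (x + y) z = Q x z + Q y z
  smul_left : ∀ (c : ℝ) x y, Q (c • x) y = c * Q x y

theorem IsForm.add_right {Q : (E → ℝ) → (E → ℝ) → ℝ} (h : IsForm Q) (x y z : E → ℝ) :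
    Q x (y + z) = Q x y + Q x z := by
  rw [h.symm, h.add_left, h.symm y, h.symm z]

theorem IsForm.smul_right {Q : (E → ℝ) → (E → ℝ) → ℝ} (h : IsForm Q) (c : ℝ) (x y : E → ℝ) :
    Q x (c • y) = c * Q x y := by
  rw [h.symm, h.smul_left, h.symm]

theorem IsForm.comb {Q : (E → ℝ) → (E → ℝ) → ℝ} (h : IsForm Q) (a b : ℝ) (x y : E → ℝ) :
    Q (a • x + b • y) (a • x + b • y) = a ^ 2 * Q x x + 2 * a * b * Q x y + b ^ 2 * Q y y := by
  rw [h.add_left, h.add_right, h.add_right, h.smul_left, h.smul_left, h.smul_left, h.smul_left,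
    h.smul_right, h.smul_right, h.smul_right, h.smul_right, h.symm y x]
  ring

end Vale.Agent.P317M
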