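import Vale.Agent.P317M.DLib

/-! # P317M: library on `Tsum` -/

namespace Vale.Agent.P317M

open Finset

variable {ι : Type*} [DecidableEq ι]

theorem Tsum_nil (F : Finset (ι × Bool) → ℝ) (S : Finset (ι × Bool)) : Tsum [] F S = F S := rfl

theorem Tsum_cons (i : ι) (l : List ι) (F : Finset (ι × Bool) → ℝ) (S : Finset (ι × Bool)) :
    Tsum (i :: l) F S = Tsum l F (insert (i, false) S) + Tsum l F (insert (i, true) S) := rfl

theorem Off.cons {i : ι} {l : List ι} {S : Finset (ι × Bool)} (h : Off (i :: l) S) : Off l S :=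
  fun p hp hl => h p hp (List.mem_cons_of_mem _ hl)

theorem Off.head {i : ι} {l : List ι} {S : Finset (ι × Bool)} (h : Off (i :: l) S) (b : Bool) :
    (i, b) ∉ S := fun hp => h _ hp List.mem_cons_self

theorem Off.insert {l : List ι} {S : Finset (ι × Bool)} (h : Off l S) {p : ι × Bool}
    (hp : p.1 ∉ l) : Off l (insert p S) := by
  intro q hq
  rcases Finset.mem_insert.1 hq with rfl | hq
  · exact hp
  · exact h q hq

theorem Off.erase {l : List ι} {S : Finset (ι × Bool)} (h : Off l S) (i : ι) :
    Off (l.erase i) S := fun p hp hl => h p hp (List.mem_of_mem_erase hl)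

theorem Off.notMem {l : List ι} {S : Finset (ι × Bool)} (h : Off l S) {i : ι} (hi : i ∈ l)
    (b : Bool) : (i, b) ∉ S := fun hp => h _ hp hi

theorem Tsum_add (l : List ι) (F G : Finset (ι × Bool) → ℝ) (S : Finset (ι × Bool)) :
    Tsum l (fun A => F A + G A) S = Tsum l F S + Tsum l G S := by
  induction l generalizing S with
  | nil => rfl
  | cons i l ih => rw [Tsum_cons, Tsum_cons, Tsum_cons, ih, ih]; ring

theorem Tsum_sub (l : List ι) (F G : Finset (ι × Bool) → ℝ) (S : Finset (ι × Bool)) :
    Tsum l (fun A => F A - G A) S = Tsum l F S - Tsum l G S := by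
  induction l generalizing S with
  | nil => rfl
  | cons i l ih => rw [Tsum_cons, Tsum_cons, Tsum_cons, ih, ih]; ring

theorem Tsum_smul (l : List ι) (c : ℝ) (F : Finset (ι × Bool) → ℝ) (S : Finset (ι × Bool)) :
    Tsum l (fun A => c * F A) S = c * Tsum l F S := by
  induction l generalizing S with
  | nil => rfl
  | cons i l ih => rw [Tsum_cons, Tsum_cons, ih, ih]; ring

theorem Tsum_sum {κ : Type*} (s : Finset κ) (l : List ι) (F : κ → Finset (ι × Bool) → ℝ)
    (S : Finset (ι × Bool)) :
    Tsum l (fun A => ∑ k ∈ s, F k A) S = ∑ k ∈ s, Tsum l (F k) S := by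
  induction l generalizing S with
  | nil => rfl
  | cons i l ih => rw [Tsum_cons, ih, ih, ← sum_add_distrib]; rfl

/-- the sets `A` that occur in `Tsum l F S`: they contain `S`, exactly one element of each pair of
`l`, and otherwise no element outside `S`; `|A| = |S| + |l|` -/
def Occ (l : List ι) (S A : Finset (ι × Bool)) : Prop :=
  S ⊆ A ∧ (∀ k ∈ l, ((k, false) ∈ A ↔ (k, true) ∉ A)) ∧ (∀ p : ι × Bool, p.1 ∉ l → (p ∈ A ↔ p ∈ S)) ∧
    A.card = S.card + l.length

theorem Occ.cons {i : ι} {l : List ι} {S A : Finset (ι × Bool)} (hn : (i :: l).Nodup)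
    (hS : Off (i :: l) S) (b : Bool) (h : Occ l (insert (i, b) S) A) : Occ (i :: l) S A := by
  obtain ⟨h1, h2, h3, h4⟩ := h
  have hil : i ∉ l := (List.nodup_cons.1 hn).1
  refine ⟨fun p hp => h1 (mem_insert_of_mem hp), ?_, ?_, ?_⟩
  · intro k hk
    rcases List.mem_cons.1 hk with rfl | hk
    · rw [h3 (k, false) hil, h3 (k, true) hil]
      have e1 := hS.head false
      have e2 := hS.head true
      cases b <;> simp [e1, e2]
    · exact h2 k hk
  · intro p hp
    rw [List.mem_cons, not_or] at hp
    rw [h3 p hp.2, mem_insert]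
    constructor
    · rintro (h | h)
      · exact absurd (by rw [h]) hp.1
      · exact h
    · exact Or.inr
  · rw [h4, card_insert_of_notMem (hS.head b), List.length_cons]; ring

theorem Tsum_congr {l : List ι} (hn : l.Nodup) {S : Finset (ι × Bool)} (hS : Off l S)
    {F G : Finset (ι × Bool) → ℝ} (h : ∀ A, Occ l S A → F A = G A) : Tsum l F S = Tsum l G S := by
  induction l generalizing S with
  | nil =>
    refine h S ⟨subset_rfl, by simp, fun _ _ => Iff.rfl, by simp⟩
  | cons i l ih =>
    have hil := List.nodup_cons.1 hn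
    rw [Tsum_cons, Tsum_cons, ih hil.2 (hS.cons.insert hil.1) fun A hA => h A (hA.cons hn hS),
      ih hil.2 (hS.cons.insert hil.1) fun A hA => h A (hA.cons hn hS)]

theorem Tsum_le {l : List ι} (hn : l.Nodup) {S : Finset (ι × Bool)} (hS : Off l S)
    {F G : Finset (ι × Bool) → ℝ} (h : ∀ A, Occ l S A → F A ≤ G A) : Tsum l F S ≤ Tsum l G S := by
  induction l generalizing S with
  | nil =>
    refine h S ⟨subset_rfl, by simp, fun _ _ => Iff.rfl, by simp⟩
  | cons i l ih =>
    have hil := List.nodup_cons.1 hn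
    rw [Tsum_cons, Tsum_cons]
    exact add_le_add (ih hil.2 (hS.cons.insert hil.1) fun A hA => h A (hA.cons hn hS))
      (ih hil.2 (hS.cons.insert hil.1) fun A hA => h A (hA.cons hn hS))

theorem Tsum_zero (l : List ι) (S : Finset (ι × Bool)) : Tsum l (fun _ => 0) S = 0 := by
  induction l generalizing S with
  | nil => rfl
  | cons i l ih => rw [Tsum_cons, ih, ih, add_zero]

theorem Tsum_nonneg {l : List ι} (hn : l.Nodup) {S : Finset (ι × Bool)} (hS : Off l S)
    {F : Finset (ι × Bool) → ℝ} (h : ∀ A, Occ l S A → 0 ≤ F A) : 0 ≤ Tsum l F S := by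
  rw [← Tsum_zero l S]; exact Tsum_le hn hS h

theorem Tsum_pos {l : List ι} (hn : l.Nodup) {S : Finset (ι × Bool)} (hS : Off l S)
    {F : Finset (ι × Bool) → ℝ} (h : ∀ A, Occ l S A → 0 < F A) : 0 < Tsum l F S := by
  induction l generalizing S with
  | nil =>
    refine h S ⟨subset_rfl, by simp, fun _ _ => Iff.rfl, by simp⟩
  | cons i l ih =>
    have hil := List.nodup_cons.1 hn
    rw [Tsum_cons]
    exact add_pos (ih hil.2 (hS.cons.insert hil.1) fun A hA => h A (hA.cons hn hS))
      (ih hil.2 (hS.cons.insert hil.1) fun A hA => h A (hA.cons hn hS))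

theorem Tsum_perm {l l' : List ι} (h : l.Perm l') (F : Finset (ι × Bool) → ℝ)
    (S : Finset (ι × Bool)) : Tsum l F S = Tsum l' F S := by
  induction h generalizing S with
  | nil => rfl
  | cons i _ ih => rw [Tsum_cons, Tsum_cons, ih, ih]
  | swap i j l =>
    simp only [Tsum_cons]
    rw [insert_comm (i, false) (j, false), insert_comm (i, true) (j, false),
      insert_comm (i, false) (j, true), insert_comm (i, true) (j, true)]
    ring
  | trans _ _ ih1 ih2 => rw [ih1, ih2]

/-- pull a pair out of the sum -/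
theorem Tsum_erase {l : List ι} {i : ι} (hi : i ∈ l) (F : Finset (ι × Bool) → ℝ)
    (S : Finset (ι × Bool)) :
    Tsum l F S = Tsum (l.erase i) F (insert (i, false) S) +
      Tsum (l.erase i) F (insert (i, true) S) := by
  rw [Tsum_perm (List.perm_cons_erase hi) F S, Tsum_cons]

/-- Cauchy-Schwarz -/
theorem Tsum_cauchy {l : List ι} (hn : l.Nodup) {S : Finset (ι × Bool)} (hS : Off l S)
    {W F G : Finset (ι × Bool) → ℝ} (hW : ∀ A, Occ l S A → 0 ≤ W A) :
    (Tsum l (fun A => W A * (F A * G A)) S) ^ 2 ≤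
      Tsum l (fun A => W A * F A ^ 2) S * Tsum l (fun A => W A * G A ^ 2) S := by
  have h : ∀ t : ℝ, 0 ≤ Tsum l (fun A => W A * F A ^ 2) S * (t * t) +
      (-2 * Tsum l (fun A => W A * (F A * G A)) S) * t + Tsum l (fun A => W A * G A ^ 2) S := by
    intro t
    have h1 : 0 ≤ Tsum l (fun A => W A * (t * F A - G A) ^ 2) S :=
      Tsum_nonneg hn hS fun A hA => mul_nonneg (hW A hA) (sq_nonneg _)
    have h2 : Tsum l (fun A => W A * (t * F A - G A) ^ 2) S =
        Tsum l (fun A => (t * t) * (W A * F A ^ 2) + (-2 * t) * (W A * (F A * G A)) +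
          W A * G A ^ 2) S :=
      Tsum_congr hn hS fun A _ => by ring
    rw [h2, Tsum_add, Tsum_add, Tsum_smul, Tsum_smul] at h1
    linarith
  have := discrim_le_zero h
  unfold discrim at this
  nlinarith

/-- the sets that do not meet a pair outside `l` -/
theorem Occ.notMem {l : List ι} {S A : Finset (ι × Bool)} (h : Occ l S A) {p : ι × Bool}
    (hp : p.1 ∉ l) (hpS : p ∉ S) : p ∉ A := fun h' => hpS ((h.2.2.1 p hp).1 h')

theorem Occ.insert {l : List ι} {S A : Finset (ι × Bool)} (h : Occ l S A) {p : ι × Bool}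
    (hp : p.1 ∉ l) (hpS : p ∉ S) : Occ l (insert p S) (insert p A) := by
  obtain ⟨h1, h2, h3, h4⟩ := h
  have hpA : p ∉ A := fun h' => hpS ((h3 p hp).1 h')
  refine ⟨insert_subset_insert _ h1, ?_, ?_, ?_⟩
  · intro k hk
    have e : ∀ b, (k, b) ≠ p := fun b hb => hp (by rw [← hb]; exact hk)
    simp [e, h2 k hk]
  · intro r hr
    simp only [mem_insert, h3 r hr]
  · rw [card_insert_of_notMem hpA, card_insert_of_notMem hpS, h4]; ring

/-- shift: adding an element of a pair outside `l` -/
theorem Tsum_shift (l : List ι) (p : ι × Bool) (F : Finset (ι × Bool) → ℝ)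
    (S : Finset (ι × Bool)) : Tsum l (fun A => F (insert p A)) S = Tsum l F (insert p S) := by
  induction l generalizing S with
  | nil => rfl
  | cons i l ih =>
    rw [Tsum_cons, Tsum_cons, ih, ih, insert_comm p, insert_comm p]

variable [Fintype ι]

/-- a derivative along a single element of a pair outside `l` -/
theorem Tsum_D_single {l : List ι} (hn : l.Nodup) {S : Finset (ι × Bool)} (hS : Off l S)
    {p : ι × Bool} (hp : p.1 ∉ l) (hpS : p ∉ S) (F : Finset (ι × Bool) → ℝ) :
    Tsum l (D (Pi.single p 1) F) S = Tsum l F (insert p S) := by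
  rw [← Tsum_shift]
  exact Tsum_congr hn hS fun A hA => by rw [D_single, if_neg (hA.notMem hp hpS)]

theorem Tsum_D_single_mem {l : List ι} (hn : l.Nodup) {S : Finset (ι × Bool)} (hS : Off l S)
    {p : ι × Bool} (hpS : p ∈ S) (F : Finset (ι × Bool) → ℝ) :
    Tsum l (D (Pi.single p 1) F) S = 0 := by
  rw [← Tsum_zero l S]
  exact Tsum_congr hn hS fun A hA => by rw [D_single, if_pos (hA.1 hpS)]

/-- the second derivatives of a transversal sum are a form -/
theorem isForm_Tsum (l : List ι) (w : Finset (ι × Bool) → ℝ) (S : Finset (ι × Bool)) :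
    IsForm (fun x y => Tsum l (D x (D y w)) S) where
  symm x y := by
    show Tsum l (D x (D y w)) S = Tsum l (D y (D x w)) S
    congr 1; funext A; exact D_comm x y w A
  add_left x y z := by
    show Tsum l (D (x + y) (D z w)) S = Tsum l (D x (D z w)) S + Tsum l (D y (D z w)) S
    rw [← Tsum_add]; congr 1; funext A; exact D_add x y _ A
  smul_left c x y := by
    show Tsum l (D (c • x) (D y w)) S = c * Tsum l (D x (D y w)) S
    rw [← Tsum_smul]; congr 1; funext A; exact D_smul c x _ A

end Vale.Agent.P317M
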